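import Vale.Agent.Lib.P091.Equiv

/-!
# P091: a dichotomy for Fourier series on `L log L`

Either the maximal Fourier sum operator satisfies a weak type estimate on `L log L` (and
then every function of `L log L` has an almost everywhere convergent Fourier series), or
some function of `L log L` has Fourier sums which are unbounded at every point of a set of
positive measure.
-/

namespace Vale.Agent.Results.P091.Dichotomy

open MeasureTheory Vale.Agent.Lib.P091

theorem result {T : ℝ} [Fact (0 < T)] :
    ((∃ K : ℝ, ∀ f : AddCircle T → ℂ, MemLlogL f → ∀ κ : ℝ, 0 < κ →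
        ∫ x, ‖f x‖ / κ * Real.log (2 + ‖f x‖ / κ) ∂AddCircle.haarAddCircle ≤ 1 →
        ∀ lam : ℝ, 0 < lam →
          lam * (AddCircle.haarAddCircle : Measure (AddCircle T)).real
            {x | ∃ N : ℕ, lam < ‖fourierSum N f x‖} ≤ K * κ) ∧
      ∀ f : AddCircle T → ℂ, MemLlogL f →
        ∀ᵐ x ∂AddCircle.haarAddCircle,
          Filter.Tendsto (fun N : ℕ => fourierSum N f x) Filter.atTop (nhds (f x))) ∨
    ∃ f : AddCircle T → ℂ, MemLlogL f ∧
      0 < (AddCircle.haarAddCircle : Measure (AddCircle T))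
        {x | ∀ C : ℝ, ∃ N : ℕ, C < ‖fourierSum N f x‖} := by
  by_cases hB : ∀ f : AddCircle T → ℂ, MemLlogL f →
      ∀ᵐ x ∂AddCircle.haarAddCircle, ∃ C : ℝ, ∀ N : ℕ, ‖fourierSum N f x‖ ≤ C
  · have hC := exists_weakType_of_ae_bounded hB
    exact Or.inl ⟨hC, ae_tendsto_of_exists_weakType hC⟩
  · right
    push Not at hB
    obtain ⟨f, hf, hne⟩ := hB
    refine ⟨f, hf, pos_iff_ne_zero.mpr fun h0 => hne ?_⟩
    rw [ae_iff]
    refine measure_mono_null (fun x hx => ?_) h0
    simp only [Set.mem_ofPred_eq] at hx ⊢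
    push Not at hx
    exact hx

end Vale.Agent.Results.P091.Dichotomy
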