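import Vale.Agent.Lib.P091.Equiv

/-!
# P091: three equivalent forms of the convergence question on `L log L`

For the circle `AddCircle T` of any period `T > 0` with its normalized Haar measure, the
following are equivalent:

* almost everywhere convergence `S_N f → f` for every `f` in `L log L` (question Q1);
* a weak type estimate `λ μ{S* f > λ} ≤ K ‖f‖` for the maximal Fourier sum operator `S*`,
  where `‖f‖` is the Luxemburg norm of `f` for the Young function `t log (2 + t)`;
* almost everywhere boundedness of the sequence `S_N f` for every `f` in `L log L`.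
-/

namespace Vale.Agent.Results.P091.Equivalences

open MeasureTheory Vale.Agent.Lib.P091

theorem result {T : ℝ} [Fact (0 < T)] :
    ((∀ f : AddCircle T → ℂ, MemLlogL f →
        ∀ᵐ x ∂AddCircle.haarAddCircle,
          Filter.Tendsto (fun N : ℕ => fourierSum N f x) Filter.atTop (nhds (f x))) ↔
      ∃ K : ℝ, ∀ f : AddCircle T → ℂ, MemLlogL f → ∀ κ : ℝ, 0 < κ →
        ∫ x, ‖f x‖ / κ * Real.log (2 + ‖f x‖ / κ) ∂AddCircle.haarAddCircle ≤ 1 →
        ∀ lam : ℝ, 0 < lam →
          lam * (AddCircle.haarAddCircle : Measure (AddCircle T)).real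
            {x | ∃ N : ℕ, lam < ‖fourierSum N f x‖} ≤ K * κ) ∧
    ((∀ f : AddCircle T → ℂ, MemLlogL f →
        ∀ᵐ x ∂AddCircle.haarAddCircle,
          Filter.Tendsto (fun N : ℕ => fourierSum N f x) Filter.atTop (nhds (f x))) ↔
      ∀ f : AddCircle T → ℂ, MemLlogL f →
        ∀ᵐ x ∂AddCircle.haarAddCircle, ∃ C : ℝ, ∀ N : ℕ, ‖fourierSum N f x‖ ≤ C) :=
  ⟨⟨fun hA => exists_weakType_of_ae_bounded (ae_bounded_of_ae_tendsto hA),
      ae_tendsto_of_exists_weakType⟩,
    ⟨ae_bounded_of_ae_tendsto,
      fun hB => ae_tendsto_of_exists_weakType (exists_weakType_of_ae_bounded hB)⟩⟩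

end Vale.Agent.Results.P091.Equivalences
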